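import Vale.Agent.P246.R2.H429.Defs5

/-! # P246: ROW HOM: two presentation complexes of the same presentation are homeomorphic -/

namespace Vale.Agent.P246.H429.HOM481

open Vale.Agent.P246 Vale.Agent.P246.T Topology Metric Set

theorem homeo_of {K Y Y' : Type} [TopologicalSpace K] [CompactSpace K] [TopologicalSpace Y]
    [T2Space Y] [TopologicalSpace Y'] [T2Space Y'] (F : K → Y) (F' : K → Y') (hF : Continuous F)
    (hF' : Continuous F') (sF : Function.Surjective F) (sF' : Function.Surjective F')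
    (h : ∀ k l, F k = F l ↔ F' k = F' l) : Nonempty (Y ≃ₜ Y') := by
  have q : IsQuotientMap F := hF.isClosedMap.isQuotientMap hF sF
  have q' : IsQuotientMap F' := hF'.isClosedMap.isQuotientMap hF' sF'
  let L : Y → Y' := fun y => F' (Function.surjInv sF y)
  let L' : Y' → Y := fun y => F (Function.surjInv sF' y)
  have hL : ∀ k, L (F k) = F' k := fun k => (h _ _).1 (Function.surjInv_eq sF (F k))
  have hL' : ∀ k, L' (F' k) = F k := fun k => (h _ _).2 (Function.surjInv_eq sF' (F' k))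
  have cL : Continuous L := by
    rw [q.continuous_iff]
    have : L ∘ F = F' := funext hL
    rw [this]
    exact hF'
  have cL' : Continuous L' := by
    rw [q'.continuous_iff]
    have : L' ∘ F' = F := funext hL'
    rw [this]
    exact hF
  refine ⟨⟨⟨L, L', fun y => ?_, fun y => ?_⟩, cL, cL'⟩⟩
  · obtain ⟨k, rfl⟩ := sF y
    rw [hL, hL']
  · obtain ⟨k, rfl⟩ := sF' y
    rw [hL', hL]

/-- the cells -/
abbrev K (m l : ℕ) : Type := Unit ⊕ ((Fin m × Dk 1) ⊕ (Fin l × Dk 2))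

/-- interior points of the cells -/
def Itr {m l : ℕ} : K m l → Prop
  | Sum.inl _ => True
  | Sum.inr (Sum.inl q) => ‖(q.2 : Fin 1 → ℝ)‖ < 1
  | Sum.inr (Sum.inr q) => ‖(q.2 : Fin 2 → ℝ)‖ < 1

theorem par_eq (s : I) : par (2 * (s : ℝ) - 1) = s := by
  have h0 := s.2.1
  have h1 := s.2.2
  apply Subtype.ext
  rw [par, Set.coe_projIcc]
  have : (2 * (s : ℝ) - 1 + 1) / 2 = s := by ring
  rw [this, min_eq_right h1, max_eq_right h0]

section One

variable {G : Type} [Group G] {Pr : FinPresentation G} {X E : Type} [TopologicalSpace X]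
    [TopologicalSpace E] [MulAction G E] [ContinuousConstSMul G E] {p : C(E, X)}

/-- the map onto the presentation complex -/
noncomputable def fm (c : PresCx Pr p) : K Pr.gens Pr.rels → X
  | Sum.inl _ => p c.e
  | Sum.inr (Sum.inl q) => p (c.edge q.1 q.2)
  | Sum.inr (Sum.inr q) => p (c.b q.1 q.2)

theorem cont_fm (c : PresCx Pr p) : Continuous (fm c) := by
  refine continuous_sum_dom.2 ⟨continuous_const, continuous_sum_dom.2 ⟨?_, ?_⟩⟩
  · refine continuous_prod_of_discrete_left.2 fun i => ?_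
    exact p.continuous.comp (c.edge i).continuous
  · refine continuous_prod_of_discrete_left.2 fun i => ?_
    exact p.continuous.comp (c.b i).continuous

theorem e_mem (c : PresCx Pr p) (n : ℕ) : p c.e ∈ c.Y1 n := Or.inl rfl

theorem edge_mem (c : PresCx Pr p) {n : ℕ} (i : Fin Pr.gens) (hi : (i : ℕ) < n) (z : Dk 1) :
    p (c.edge i z) ∈ c.Y1 n := Or.inr (mem_iUnion₂.2 ⟨i, hi, z, rfl⟩)

theorem Y1_mem (c : PresCx Pr p) (n : ℕ) {y : X} (hy : y ∈ c.Y1 Pr.gens) : y ∈ c.Y2 n :=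
  Or.inl hy

theorem b_mem (c : PresCx Pr p) {n : ℕ} (j : Fin Pr.rels) (hj : (j : ℕ) < n) (z : Dk 2) :
    p (c.b j z) ∈ c.Y2 n := Or.inr (mem_iUnion₂.2 ⟨j, hj, z, rfl⟩)

theorem fm_mem (c : PresCx Pr p) (k : K Pr.gens Pr.rels) : fm c k ∈ c.Y := by
  rcases k with _ | ⟨i, z⟩ | ⟨j, z⟩
  · exact Y1_mem c _ (e_mem c _)
  · exact Y1_mem c _ (edge_mem c i i.2 z)
  · exact b_mem c j j.2 z

theorem fm_surj (c : PresCx Pr p) {y : X} (hy : y ∈ c.Y) : ∃ k, fm c k = y := by
  rcases hy with (hy | hy) | hy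
  · exact ⟨Sum.inl (), hy.symm⟩
  · obtain ⟨i, _, z, rfl⟩ := mem_iUnion₂.1 hy
    exact ⟨Sum.inr (Sum.inl (i, z)), rfl⟩
  · obtain ⟨j, _, z, rfl⟩ := mem_iUnion₂.1 hy
    exact ⟨Sum.inr (Sum.inr (j, z)), rfl⟩

theorem fm_inj (c : PresCx Pr p) (hc : c.Good) (k l : K Pr.gens Pr.rels) (hk : Itr k)
    (hl : Itr l) (h : fm c k = fm c l) : k = l := by
  rcases k with ⟨⟩ | ⟨i, z⟩ | ⟨j, z⟩ <;> rcases l with ⟨⟩ | ⟨i', z'⟩ | ⟨j', z'⟩
  · rfl
  · exfalso
    have h' : p c.e = p (c.edge i' z') := h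
    exact (hc.att1 i').int z' hl (by change p (c.edge i' z') ∈ _; rw [← h']; exact e_mem c _)
  · exfalso
    have h' : p c.e = p (c.b j' z') := h
    exact (hc.att2 j').int z' hl
      (by change p (c.b j' z') ∈ _; rw [← h']; exact Y1_mem c _ (e_mem c _))
  · exfalso
    have h' : p (c.edge i z) = p c.e := h
    exact (hc.att1 i).int z hk (by change p (c.edge i z) ∈ _; rw [h']; exact e_mem c _)
  · have h' : p (c.edge i z) = p (c.edge i' z') := h
    rcases lt_trichotomy (i : ℕ) i' with hlt | heq | hlt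
    · exact absurd (by change p (c.edge i' z') ∈ _; rw [← h']; exact edge_mem c i hlt z)
        ((hc.att1 i').int z' hl)
    · have : i = i' := Fin.ext heq
      subst this
      rw [(hc.att1 i).inj z z' hk hl h']
    · exact absurd (by change p (c.edge i z) ∈ _; rw [h']; exact edge_mem c i' hlt z')
        ((hc.att1 i).int z hk)
  · exfalso
    have h' : p (c.edge i z) = p (c.b j' z') := h
    exact (hc.att2 j').int z' hl
      (by change p (c.b j' z') ∈ _; rw [← h']; exact Y1_mem c _ (edge_mem c i i.2 z))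
  · exfalso
    have h' : p (c.b j z) = p c.e := h
    exact (hc.att2 j).int z hk
      (by change p (c.b j z) ∈ _; rw [h']; exact Y1_mem c _ (e_mem c _))
  · exfalso
    have h' : p (c.b j z) = p (c.edge i' z') := h
    exact (hc.att2 j).int z hk
      (by change p (c.b j z) ∈ _; rw [h']; exact Y1_mem c _ (edge_mem c i' i'.2 z'))
  · have h' : p (c.b j z) = p (c.b j' z') := h
    rcases lt_trichotomy (j : ℕ) j' with hlt | heq | hlt
    · exact absurd (by change p (c.b j' z') ∈ _; rw [← h']; exact b_mem c j hlt z)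
        ((hc.att2 j').int z' hl)
    · have : j = j' := Fin.ext heq
      subst this
      rw [(hc.att2 j).inj z z' hk hl h']
    · exact absurd (by change p (c.b j z) ∈ _; rw [h']; exact b_mem c j' hlt z')
        ((hc.att2 j).int z hk)

end One

section Two

variable {G : Type} [Group G] {Pr : FinPresentation G} {X E X' E' : Type} [TopologicalSpace X]
    [TopologicalSpace E] [MulAction G E] [ContinuousConstSMul G E] {p : C(E, X)}
    [TopologicalSpace X'] [TopologicalSpace E'] [MulAction G E'] [ContinuousConstSMul G E']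
    {p' : C(E', X')} (hp : IsQuotientCoveringMap p G) (hp' : IsQuotientCoveringMap p' G)
    (c : PresCx Pr p) (c' : PresCx Pr p')

include hp hp'

theorem edge_case (i : Fin Pr.gens) (s : I) : ∃ k : K Pr.gens Pr.rels, Itr k ∧
    p (c.a i s) = fm c k ∧ p' (c'.a i s) = fm c' k := by
  by_cases h0 : s = 0
  · subst h0
    exact ⟨Sum.inl (), trivial, by rw [(c.a i).source]; rfl, by rw [(c'.a i).source]; rfl⟩
  by_cases h1 : s = 1
  · subst h1
    exact ⟨Sum.inl (), trivial, by rw [(c.a i).target, hp.map_smul]; rfl,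
      by rw [(c'.a i).target, hp'.map_smul]; rfl⟩
  have h2 : 0 < (s : ℝ) := lt_of_le_of_ne s.2.1 fun h => h0 (Subtype.ext h.symm)
  have h3 : (s : ℝ) < 1 := lt_of_le_of_ne s.2.2 fun h => h1 (Subtype.ext h)
  have hn : ‖(fun _ => 2 * (s : ℝ) - 1 : Fin 1 → ℝ)‖ < 1 := by
    rw [pi_norm_lt_iff one_pos]
    intro _
    rw [Real.norm_eq_abs, abs_lt]
    constructor <;> linarith
  have hm : (fun _ => 2 * (s : ℝ) - 1 : Fin 1 → ℝ) ∈ closedBall (0 : Fin 1 → ℝ) 1 := by
    rw [mem_closedBall_zero_iff]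
    exact hn.le
  refine ⟨Sum.inr (Sum.inl (i, ⟨_, hm⟩)), hn, ?_, ?_⟩
  · change p (c.a i s) = p (c.a i (par (2 * (s : ℝ) - 1)))
    rw [par_eq]
  · change p' (c'.a i s) = p' (c'.a i (par (2 * (s : ℝ) - 1)))
    rw [par_eq]

theorem word_case (w : List (Fin Pr.gens × Bool)) : ∀ s : I, ∃ k : K Pr.gens Pr.rels, Itr k ∧
    p (wpath Pr.x c.a w s) = fm c k ∧ p' (wpath Pr.x c'.a w s) = fm c' k := by
  induction w with
  | nil => exact fun s => ⟨Sum.inl (), trivial, rfl, rfl⟩
  | cons l w ih =>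
    intro s
    have h1 : wpath Pr.x c.a (l :: w) s =
      ((lpath Pr.x c.a l).trans (gpath (lval Pr.x l) (wpath Pr.x c.a w))) s := rfl
    have h2 : wpath Pr.x c'.a (l :: w) s =
      ((lpath Pr.x c'.a l).trans (gpath (lval Pr.x l) (wpath Pr.x c'.a w))) s := rfl
    rw [h1, h2, Path.trans_apply, Path.trans_apply]
    by_cases hs : (s : ℝ) ≤ 1 / 2
    · rw [dif_pos hs, dif_pos hs]
      obtain ⟨i, b⟩ := l
      cases b with
      | true => exact edge_case hp hp' c c' i _
      | false =>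
        change ∃ k : K Pr.gens Pr.rels, Itr k ∧
          p ((Pr.x i)⁻¹ • c.a i (unitInterval.symm _)) = fm c k ∧
            p' ((Pr.x i)⁻¹ • c'.a i (unitInterval.symm _)) = fm c' k
        rw [hp.map_smul, hp'.map_smul]
        exact edge_case hp hp' c c' i _
    · rw [dif_neg hs, dif_neg hs]
      change ∃ k : K Pr.gens Pr.rels, Itr k ∧
        p (lval Pr.x l • wpath Pr.x c.a w _) = fm c k ∧
          p' (lval Pr.x l • wpath Pr.x c'.a w _) = fm c' k
      rw [hp.map_smul, hp'.map_smul]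
      exact ih _

theorem red (k : K Pr.gens Pr.rels) : ∃ k' : K Pr.gens Pr.rels, Itr k' ∧
    fm c k = fm c k' ∧ fm c' k = fm c' k' := by
  rcases k with ⟨⟩ | ⟨i, z⟩ | ⟨j, z⟩
  · exact ⟨Sum.inl (), trivial, rfl, rfl⟩
  · exact edge_case hp hp' c c' i (par ((z : Fin 1 → ℝ) 0))
  · rcases (mem_closedBall_zero_iff.1 z.2).lt_or_eq with h | h
    · exact ⟨Sum.inr (Sum.inr (j, z)), h, rfl, rfl⟩
    · by_cases h2 : (z : Fin 2 → ℝ) 0 = 1
      · obtain ⟨k, hk, e1, e2⟩ := word_case hp hp' c c' (Pr.r j).toWord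
          (par ((z : Fin 2 → ℝ) 1))
        refine ⟨k, hk, ?_, ?_⟩
        · rw [← e1, ← (c.bdry j z h).1 h2]
          rfl
        · rw [← e2, ← (c'.bdry j z h).1 h2]
          rfl
      · refine ⟨Sum.inl (), trivial, ?_, ?_⟩
        · change p (c.b j z) = p c.e
          rw [(c.bdry j z h).2 h2]
        · change p' (c'.b j z) = p' c'.e
          rw [(c'.bdry j z h).2 h2]

theorem ker_le (hc : c.Good) (k l : K Pr.gens Pr.rels) (h : fm c k = fm c l) :
    fm c' k = fm c' l := by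
  obtain ⟨k', hk', e1, e2⟩ := red hp hp' c c' k
  obtain ⟨l', hl', e3, e4⟩ := red hp hp' c c' l
  have : k' = l' := fm_inj c hc k' l' hk' hl' (by rw [← e1, ← e3, h])
  rw [e2, e4, this]

end Two

/-- **ROW HOM** -/
theorem hom : SpecHom := by
  intro G X E X' E' _ _ _ _ _ _ p _ _ _ _ _ p' hp hp' Pr c c' hc hc'
  refine homeo_of (K := K Pr.gens Pr.rels) (fun k => (⟨fm c k, fm_mem c k⟩ : c.Y))
    (fun k => (⟨fm c' k, fm_mem c' k⟩ : c'.Y)) ((cont_fm c).subtype_mk _)
    ((cont_fm c').subtype_mk _) ?_ ?_ ?_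
  · rintro ⟨y, hy⟩
    obtain ⟨k, rfl⟩ := fm_surj c hy
    exact ⟨k, rfl⟩
  · rintro ⟨y, hy⟩
    obtain ⟨k, rfl⟩ := fm_surj c' hy
    exact ⟨k, rfl⟩
  · intro k l
    rw [Subtype.mk.injEq, Subtype.mk.injEq]
    exact ⟨ker_le hp hp' c c' hc k l, ker_le hp' hp c' c hc' k l⟩

end Vale.Agent.P246.H429.HOM481
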