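import Vale.Agent.P246.R2.H429.Defs4
import Vale.Agent.P246.T.YP.Gen
import Mathlib.Topology.Homotopy.Lifting

/-! # P246: ROW TW3: simple connectivity of the covering of the wedge -/

namespace Vale.Agent.P246.H429.TW3

open Vale.Agent.P246 Vale.Agent.P246.T Vale.Agent.P246.T.YP Topology Metric Set

theorem hom_eq {Z : Type} [TopologicalSpace Z] {a b a' b' : Z} {P Q : Path a b}
    {P' Q' : Path a' b'} (h : P.Homotopic Q) (hP : ∀ t, P' t = P t) (hQ : ∀ t, Q' t = Q t) :
    P'.Homotopic Q' := by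
  have ha : a' = a := by rw [← P'.source, hP, P.source]
  have hb : b' = b := by rw [← P'.target, hP, P.target]
  subst ha hb
  have h1 : P' = P := Path.ext (funext hP)
  have h2 : Q' = Q := Path.ext (funext hQ)
  rw [h1, h2]
  exact h

section Down

variable {W : Type} [TopologicalSpace W] [T2Space W]

theorem sph_closed {C B : Set W} {t : ℕ} (hC : IsClosed C) (h : Sph C B t) : IsClosed B := by
  induction h with
  | base => exact hC
  | cell Φ a _ _ _ hatt ih =>
    rw [hatt.eq]
    exact ih.union (isCompact_range Φ.continuous).isClosed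

omit [T2Space W] in
theorem sph_sub {C B : Set W} {t : ℕ} (h : Sph C B t) : C ⊆ B := by
  induction h with
  | base => exact le_rfl
  | cell Φ a _ _ _ hatt ih =>
    rw [hatt.eq]
    exact ih.trans subset_union_left

omit [T2Space W] in
/-- every point can be joined to `C` -/
theorem joined_C {C B : Set W} {t : ℕ} (h : Sph C B t) :
    ∀ w ∈ B, ∃ a ∈ C, Nonempty (Path w a) := by
  induction h with
  | base => exact fun w hw => ⟨w, hw, ⟨Path.refl w⟩⟩
  | cell Φ a _ ha hc hatt ih =>
    intro w hw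
    rw [hatt.eq] at hw
    rcases hw with hw | ⟨z, rfl⟩
    · exact ih w hw
    · have h1 : Φ (mone 2) = a := by
        refine hc (mone 2) ?_
        change ‖(fun _ => -1 : Fin 2 → ℝ)‖ = 1
        refine le_antisymm ((pi_norm_le_iff_of_nonneg zero_le_one).2 fun _ => by norm_num) ?_
        have := norm_le_pi_norm (fun _ => -1 : Fin 2 → ℝ) 0
        rwa [norm_neg, norm_one] at this
      obtain ⟨β⟩ := PathConnectedSpace.joined z (mone 2)
      exact ⟨a, ha, ⟨(β.map Φ.continuous).cast rfl h1.symm⟩⟩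

/-- paths in a space with one more two-cell -/
theorem one_cell {A B : Set W} {Φ : C(Dk 2, W)} (hA : IsClosed A) (att : Attach 2 A B Φ)
    {u v : W} (γ : Path u v) (hu : u ∈ A) (hv : v ∈ A) (hγ : ∀ t, γ t ∈ B) :
    ∃ δ : Path u v, (∀ t, δ t ∈ A) ∧ γ.Homotopic δ := by
  have h : CellData 2 Unit B A (fun _ => Φ) := CC.main1 W 2 _ _ _ hA att
  let incl : C(B, W) := ⟨Subtype.val, continuous_subtype_val⟩
  let u' : B := ⟨u, h.sub hu⟩
  let v' : B := ⟨v, h.sub hv⟩
  let γ' : Path u' v' :=
    { toFun := fun t => ⟨γ t, hγ t⟩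
      continuous_toFun := γ.continuous.subtype_mk _
      source' := Subtype.ext γ.source
      target' := Subtype.ext γ.target }
  obtain ⟨δ, hδ, he⟩ := dec h A le_rfl (fun x hx => h.bdry () x hx)
    (fun u v a => ∃ δ : Path u v, (∀ t, (δ t).1 ∈ A) ∧ Path.Homotopic.Quotient.mk δ = a)
    (by
      rintro u v w _ _ _ _ _ ⟨δ, hδ, rfl⟩ ⟨δ', hδ', rfl⟩
      refine ⟨δ.trans δ', fun t => ?_, Path.Homotopic.Quotient.mk_trans _ _⟩
      rw [Path.trans_apply]
      split_ifs
      · exact hδ _
      · exact hδ' _)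
    (fun u v δ _ _ hδ => ⟨δ, hδ, rfl⟩)
    (by
      intro x y β hx hy
      have hr : 1 < Module.rank ℝ (Fin 2 → ℝ) := by
        rw [rank_fin_fun]
        norm_num
      have hj : JoinedIn (sphere (0 : Fin 2 → ℝ) 1) x y :=
        (isPathConnected_sphere hr 0 zero_le_one).joinedIn _ (by simpa using hx) _
          (by simpa using hy)
      have hn : ∀ t, ‖hj.somePath t‖ = 1 := fun t => by
        have := hj.somePath_mem t
        simpa using this
      have hm : ∀ t, hj.somePath t ∈ closedBall (0 : Fin 2 → ℝ) 1 := fun t => by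
        rw [mem_closedBall_zero_iff, hn]
      let β' : Path x y :=
        { toFun := fun t => ⟨hj.somePath t, hm t⟩
          continuous_toFun := hj.somePath.continuous.subtype_mk hm
          source' := Subtype.ext hj.somePath.source
          target' := Subtype.ext hj.somePath.target }
      refine ⟨β'.map (phB h).continuous, fun t => h.bdry () _ (hn t), ?_⟩
      rw [Path.Homotopic.Quotient.mk_map, Path.Homotopic.Quotient.mk_map]
      congr 1
      exact Subsingleton.elim _ _) u' v' γ' hu hv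
  refine ⟨δ.map incl.continuous, hδ, ?_⟩
  have h4 := congrArg (fun a => Path.Homotopic.Quotient.map a incl) he
  change Path.Homotopic.Quotient.map _ incl = Path.Homotopic.Quotient.map _ incl at h4
  rw [← Path.Homotopic.Quotient.mk_map, ← Path.Homotopic.Quotient.mk_map] at h4
  exact (Path.Homotopic.Quotient.eq.1 h4).symm

/-- paths in `B` can be deformed into `C` -/
theorem push_C {C B : Set W} {t : ℕ} (hC : IsClosed C) (h : Sph C B t) :
    ∀ {u v : W} (γ : Path u v), u ∈ C → v ∈ C → (∀ t, γ t ∈ B) →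
      ∃ δ : Path u v, (∀ t, δ t ∈ C) ∧ γ.Homotopic δ := by
  induction h with
  | base => exact fun γ _ _ hγ => ⟨γ, hγ, Path.Homotopic.refl γ⟩
  | cell Φ a hs _ _ hatt ih =>
    intro u v γ hu hv hγ
    obtain ⟨δ, hδ, h1⟩ := one_cell (sph_closed hC hs) hatt γ (sph_sub hs hu) (sph_sub hs hv) hγ
    obtain ⟨ε, hε, h2⟩ := ih δ hu hv hδ
    exact ⟨ε, hε, h1.trans h2⟩

end Down

/-- **ROW TW3** -/
theorem tw3 : SpecSCW := by
  intro G W F _ _ _ _ _ _ q hq C t hC hS hsc
  have hcov : IsCoveringMap q := hq.isCoveringMap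
  -- paths with end points over `C`
  have hpush : ∀ {x y : F} (γ : Path x y), q x ∈ C → q y ∈ C →
      ∃ δ : Path x y, (∀ s, q (δ s) ∈ C) ∧ γ.Homotopic δ := by
    intro x y γ hx hy
    obtain ⟨δ, hδ, hh⟩ := push_C hC hS (γ.map q.continuous) hx hy fun _ => mem_univ _
    have e0 : ((γ.map q.continuous : Path (q x) (q y)) : C(I, W)) 0 = q x := Path.source _
    have e1 : (δ : C(I, W)) 0 = q x := δ.source
    have h1 := hcov.liftPath_apply_one_eq_of_homotopicRel hh x e0 e1
    have h2 : (γ : C(I, F)) = hcov.liftPath (γ.map q.continuous : Path (q x) (q y)) x e0 :=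
      (hcov.eq_liftPath_iff' e0).2 ⟨rfl, γ.source⟩
    let Γ := hcov.liftPath δ x e1
    have hΓ : ∀ s, q (Γ s) = δ s := fun s => congrFun (hcov.liftPath_lifts δ x e1) s
    have hΓ1 : Γ 1 = y := by
      have h3 : (γ : C(I, F)) 1 = Γ 1 := by
        rw [h2]
        exact h1
      rw [← h3]
      exact γ.target
    let Δ : Path x y := ⟨Γ, hcov.liftPath_zero δ x e1, hΓ1⟩
    refine ⟨Δ, fun s => ?_, ?_⟩
    · change q (Γ s) ∈ C
      rw [hΓ]
      exact hδ s
    · refine Path.Homotopic.Quotient.eq.1 (hcov.injective_path_homotopic_map _ _ ?_)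
      refine Path.Homotopic.Quotient.eq.2 ?_
      refine hom_eq hh (fun s => rfl) (fun s => ?_)
      exact hΓ s
  -- two paths with end points over `C`
  have hhom : ∀ {x y : F} (γ γ' : Path x y), q x ∈ C → q y ∈ C → γ.Homotopic γ' := by
    intro x y γ γ' hx hy
    obtain ⟨δ, hδ, h1⟩ := hpush γ hx hy
    obtain ⟨δ', hδ', h2⟩ := hpush γ' hx hy
    let x' : (q ⁻¹' C : Set F) := ⟨x, hx⟩
    let y' : (q ⁻¹' C : Set F) := ⟨y, hy⟩
    let ε : Path x' y' :=
      { toFun := fun s => ⟨δ s, hδ s⟩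
        continuous_toFun := δ.continuous.subtype_mk _
        source' := Subtype.ext δ.source
        target' := Subtype.ext δ.target }
    let ε' : Path x' y' :=
      { toFun := fun s => ⟨δ' s, hδ' s⟩
        continuous_toFun := δ'.continuous.subtype_mk _
        source' := Subtype.ext δ'.source
        target' := Subtype.ext δ'.target }
    have h3 : ε.Homotopic ε' := SimplyConnectedSpace.paths_homotopic ε ε'
    have h4 : δ.Homotopic δ' := Path.Homotopic.map h3 ⟨Subtype.val, continuous_subtype_val⟩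
    exact (h1.trans h4).trans h2.symm
  -- every point can be joined to the preimage of `C`
  have hjoin : ∀ y : F, ∃ z : F, q z ∈ C ∧ Nonempty (Path z y) := by
    intro y
    obtain ⟨a, ha, ⟨δ⟩⟩ := joined_C hS (q y) (mem_univ _)
    have e1 : (δ : C(I, W)) 0 = q y := δ.source
    let Γ := hcov.liftPath δ y e1
    have hΓ : ∀ s, q (Γ s) = δ s := fun s => congrFun (hcov.liftPath_lifts δ y e1) s
    refine ⟨Γ 1, ?_, ⟨Path.symm ⟨Γ, hcov.liftPath_zero δ y e1, rfl⟩⟩⟩
    rw [hΓ, δ.target]
    exact ha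
  have hpc : PathConnectedSpace (q ⁻¹' C : Set F) := inferInstance
  have hjoin2 : ∀ x y : F, q x ∈ C → q y ∈ C → Joined x y := by
    intro x y hx hy
    obtain ⟨ε⟩ := PathConnectedSpace.joined (⟨x, hx⟩ : (q ⁻¹' C : Set F)) ⟨y, hy⟩
    exact ⟨ε.map continuous_subtype_val⟩
  obtain ⟨⟨x0, hx0⟩⟩ := hpc.nonempty
  have hPC : PathConnectedSpace F := by
    refine ⟨⟨x0⟩, fun x y => ?_⟩
    obtain ⟨x', hx', h1⟩ := hjoin x
    obtain ⟨y', hy', h2⟩ := hjoin y
    exact (Joined.symm h1).trans ((hjoin2 x' y' hx' hy').trans h2)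
  rw [simply_connected_iff_loops_nullhomotopic]
  refine ⟨hPC, fun y γ => ?_⟩
  obtain ⟨z, hz, ⟨δ⟩⟩ := hjoin y
  have h := hhom ((δ.trans γ).trans δ.symm) (Path.refl _) hz hz
  have h0 : Path.Homotopic.Quotient.mk ((δ.trans γ).trans δ.symm) =
      Path.Homotopic.Quotient.mk (Path.refl _) := Path.Homotopic.Quotient.eq.2 h
  apply Path.Homotopic.Quotient.eq.1
  have h1 : Path.Homotopic.Quotient.mk γ = ((Path.Homotopic.Quotient.mk δ).symm.trans
      (((Path.Homotopic.Quotient.mk δ).trans (Path.Homotopic.Quotient.mk γ)).trans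
        (Path.Homotopic.Quotient.mk δ).symm)).trans (Path.Homotopic.Quotient.mk δ) := by
    simp
    rw [← Path.Homotopic.Quotient.trans_assoc]
    simp
  rw [h1]
  have h2 : ((Path.Homotopic.Quotient.mk δ).trans (Path.Homotopic.Quotient.mk γ)).trans
        (Path.Homotopic.Quotient.mk δ).symm = Path.Homotopic.Quotient.refl _ := h0
  rw [h2]
  simp

end Vale.Agent.P246.H429.TW3
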